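import Vale.Agent.P088.R2.H349.J.SpecC
import Vale.Agent.P088.R2.H455.T.Row

/-!
# P088, T2: the row used in the final assembly, from the complex form of (T2)
-/

noncomputable section

namespace Vale.Agent.P088.R2.H455.F

theorem rowT2_of (h : HY.RowT2C) : T.RowT2 := by
  intro n N hn hN
  obtain ⟨k, ε, hε, h1⟩ := h n N hn hN
  refine ⟨k, ε, hε, fun Ω hΩ hreg hcon hB s hs σ₁ σ₂ a1 a2 p1 p2 hoff A₁ A₂ b1 b2 hAoff c1 c2 hor =>
    ?_⟩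
  obtain ⟨h2, W, h3, h4, h5, h6⟩ := h1 Ω hΩ hreg hcon hB s hs σ₁ σ₂ a1 a2 p1 p2 hoff A₁ A₂ b1 b2
    hAoff c1 c2 hor
  exact ⟨h2, W, h3, h4, h5, fun i x _ => h6 i x⟩

end Vale.Agent.P088.R2.H455.F

end
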