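import Vale.Agent.P088.R2.H455.F.StF
import Vale.Agent.P088.R2.H455.G.G2

/-!
# P088: two general pairs, from joint rigidity in `ℝ^n`
-/

open Manifold Set
open scoped ContDiff Matrix

noncomputable section

namespace Vale.Agent.P088.R2.H455.F

open Vale.Agent.P088 Vale.Agent.P088.B Vale.Agent.P088.H207

universe u

theorem pair_fin {n : ℕ} [NeZero n] (hn : 3 ≤ n) {N : ℕ} (hN : 1 ≤ N)
    (hR : ∃ k : ℕ, ∀ B : ℝ, 0 < B → ∃ ε > 0, G.RigGR n N k B ε) : ∃ k : ℕ,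
    (∀ B : ℝ, 0 < B → ∃ r₀ : ℝ, 0 < r₀ ∧ ∀ r : ℝ, 0 < r → r ≤ r₀ → PairSmall.{u} n N k r B) ∧
    ∀ B R : ℝ, 0 < B → 0 < R → ∃ δ : ℝ, 0 < δ ∧ PairNear.{u} n N k B R δ := by
  obtain ⟨k, h1, h2⟩ := G.two_pairs.{u} hn hN hR
  refine ⟨k, fun B hB => ?_, fun B R hB hR => ?_⟩
  · obtain ⟨r₀, hr₀, h⟩ := h1 B hB
    refine ⟨r₀, hr₀, fun r hr hr' M _ _ _ _ _ _ Γ O hO hΓ hΓn P P' Q Q' hD hP hQ p hb
      c1 c2 b1 b2 hle hA => ?_⟩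
    exact h r hr hr' (at_ n M) rfl Γ O hO hΓ hΓn P P' Q Q' hD hP hQ p hb c1 c2 b1 b2 hle hA
  · obtain ⟨δ, hδ, h⟩ := h2 B R hB hR
    refine ⟨δ, hδ, fun G hG1 hG2 hG3 g hg1 hg2 hg3 α hα1 hα2 M _ _ _ _ _ _ Γ O hO hΓ hΓn P P' Q Q'
      hD hP hQ p W K hW c1 c2 b1 hK hKW hKR hKm hle hA => ?_⟩
    exact h G hG1 hG2 hG3 g hg1 hg2 hg3 α hα1 hα2 (at_ n M) rfl Γ O hO hΓ hΓn P P' Q Q' hD hP hQ p W
      hW c1 c2 b1 K hK hKW hKR hKm hle hA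

end Vale.Agent.P088.R2.H455.F

end
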