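import Vale.Agent.P088.R2.H794.Aff
import Vale.Agent.P088.R2.H455.J.StT
import Vale.Agent.P088.R2.H455.T.Row

/-!
# P088: two arbitrary pairs, statements
-/

open Manifold Set
open scoped ContDiff Matrix

noncomputable section

namespace Vale.Agent.P088.R2.H455.F

open Vale.Agent.P088 Vale.Agent.P088.B Vale.Agent.P088.H207
open Vale.Agent.P088.R2.H455.J (ConfO BddA ConnO)

universe u

/-- The open ball of radius `ρ` about `0`. -/
def oB (n : ℕ) (ρ : ℝ) : Set (Fin n → ℝ) := {y | ∑ i, y i ^ 2 < ρ ^ 2}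

/-- In the chart at `p`, on `W`: the derivatives of the components of the metric of order at most
`k` are at most `B`, and `det g ≥ 1 / B`. -/
def BddG {n N : ℕ} [NeZero n] {M : Type u} {Z : At n M} (k : ℕ) (B : ℝ) (Q : Pair Z N) (p : M)
    (W : Set (Fin n → ℝ)) : Prop :=
  ∀ x ∈ inM Z p W,
    (∀ i j, ∀ l ≤ k, ‖iteratedFDeriv ℝ l (fun y => gch Z Q.g p y i j) (Z.ch p x)‖ ≤ B) ∧
      1 / B ≤ (gch Z Q.g p (Z.ch p x)).det

/-- In the chart at `p`, on `W`: the pair is `(h, α)`, in the coordinates centred at `p`. -/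
def IsO {n N : ℕ} [NeZero n] {M : Type u} {Z : At n M} (h : LR.MF n) (α : LR.Cn n N)
    (P : Pair Z N) (p : M) (W : Set (Fin n → ℝ)) : Prop :=
  ∀ x ∈ inM Z p W, gch Z P.g p (Z.ch p x) = h (Z.ch p x - Z.ch p p) ∧
    ∀ i, ach Z P.A p i (Z.ch p x) = α i (Z.ch p x - Z.ch p p)

/-- The conclusion of Q1 in the situation of Q1 (any `M`, any `Γ`), for pairs `(g₁, A₁)`,
`(g₂, A₂)` with the same data on `Γ` which have transforms `(g', A')`, `(g'', A'')` such that: in a
chart, on a ball of radius `2 r` with closure in the interior of `M`, the derivatives of the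
metrics and of the connections of order at most `k` are at most `B` and the determinants of the
metrics are at least `1 / B`; off the closed concentric ball of radius `r` the connections are
equal and the metrics are piecewise ordered (for example, equal). -/
def PairSmall (n N : ℕ) [NeZero n] (k : ℕ) (r B : ℝ) : Prop :=
  ∀ (M : Type u) [TopologicalSpace M] [ChartedSpace (EuclideanHalfSpace n) M]
    [IsManifold (𝓡∂ n) ∞ M] [T2Space M] [CompactSpace M] [ConnectedSpace M] (Γ O : Set M),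
    IsOpen O → Γ = O ∩ bd (at_ n M) → Γ.Nonempty → ∀ P P' Q Q' : Pair (at_ n M) N,
    Vale.Agent.P088.B.SameData Γ P Q → Related Γ P P' → Related Γ Q Q' → ∀ p : M,
    IsBall (at_ n M) p (2 * r) → BddG k B P' p (oB n (2 * r)) → BddG k B Q' p (oB n (2 * r)) →
    BddA k B P' p (oB n (2 * r)) → BddA k B Q' p (oB n (2 * r)) →
    B8.PwLe (kball (at_ n M) p r)ᶜ Γ P' Q' → (∀ x ∉ kball (at_ n M) p r, Q'.A x = P'.A x) →
    Related Γ P Q

/-- The same for pairs near a constant metric and the trivial connection, which differ in a compact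
set `K` of any shape in a chart: `K` is contained in an open set `W`, both in the interior of `M`,
`K` lies in the cube of side `2 R` and its complement in the interior of `M` is connected; on `W`
(coordinates centred at `p`) `g' = h` and `A' = α`, where the derivatives of order at most `k` of
`h - G` and of `α` are at most `δ` on `ℝ^n`, and those of `g'' - G` and of `A''` are at most `δ` on
`W`; off `K` the connections are equal and the metrics are piecewise ordered (for example,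
equal). -/
def PairNear (n N : ℕ) [NeZero n] (k : ℕ) (B R δ : ℝ) : Prop :=
  ∀ G : Matrix (Fin n) (Fin n) ℝ, G.PosDef → (∀ i j, |G i j| ≤ B) → 1 / B ≤ G.det →
  ∀ h : LR.MF n, LR.SmM h → (∀ y, (h y).PosDef) → (∀ i j, LR.Cl k δ (fun y => h y i j - G i j)) →
  ∀ α : LR.Cn n N, LR.SmU α → (∀ i, LR.U.ClC k δ (α i)) →
  ∀ (M : Type u) [TopologicalSpace M] [ChartedSpace (EuclideanHalfSpace n) M]
    [IsManifold (𝓡∂ n) ∞ M] [T2Space M] [CompactSpace M] [ConnectedSpace M] (Γ O : Set M),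
    IsOpen O → Γ = O ∩ bd (at_ n M) → Γ.Nonempty → ∀ P P' Q Q' : Pair (at_ n M) N,
    Vale.Agent.P088.B.SameData Γ P Q → Related Γ P P' → Related Γ Q Q' →
    ∀ (p : M) (W K : Set (Fin n → ℝ)), IsOpn (at_ n M) p W → IsO h α P' p W →
    CloseO k δ (fun _ => G) Q' p W → BddA k δ Q' p W →
    IsCompact K → K ⊆ W → (∀ y ∈ K, ∀ j, |y j| ≤ R) →
    IsPreconnected ((bd (at_ n M))ᶜ \ inM (at_ n M) p K) →
    B8.PwLe (inM (at_ n M) p K)ᶜ Γ P' Q' → (∀ x ∉ inM (at_ n M) p K, Q'.A x = P'.A x) →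
    Related Γ P Q

/-- As `PairSmall`, for metrics which are conformal to the same metric `h` on the ball: the bounds
are assumed for `h` and for the connections, there is none for the conformal factors. -/
def ConfSmall (n N : ℕ) [NeZero n] (k : ℕ) (r B : ℝ) : Prop :=
  ∀ h : LR.MF n, (∀ i j, ContDiffOn ℝ ∞ (fun y => h y i j) (oB n (2 * r))) →
    (∀ y ∈ oB n (2 * r), (h y).PosDef ∧
      ∀ i j, ∀ l ≤ k, ‖iteratedFDeriv ℝ l (fun y => h y i j) y‖ ≤ B) → 1 / B ≤ (h 0).det →
  ∀ (M : Type u) [TopologicalSpace M] [ChartedSpace (EuclideanHalfSpace n) M]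
    [IsManifold (𝓡∂ n) ∞ M] [T2Space M] [CompactSpace M] [ConnectedSpace M] (Γ O : Set M),
    IsOpen O → Γ = O ∩ bd (at_ n M) → Γ.Nonempty → ∀ P P' Q Q' : Pair (at_ n M) N,
    Vale.Agent.P088.B.SameData Γ P Q → Related Γ P P' → Related Γ Q Q' → ∀ p : M,
    IsBall (at_ n M) p (2 * r) → ConfO h P' p (oB n (2 * r)) → ConfO h Q' p (oB n (2 * r)) →
    BddA k B P' p (oB n (2 * r)) → BddA k B Q' p (oB n (2 * r)) →
    B8.PwLe (kball (at_ n M) p r)ᶜ Γ P' Q' → (∀ x ∉ kball (at_ n M) p r, Q'.A x = P'.A x) →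
    Related Γ P Q

/-- As `PairNear`, for metrics which are conformal to the same metric `h` on `W`, with arbitrary
conformal factors; here the complement of `K` in `ℝ^n` is connected. -/
def ConfNear (n N : ℕ) [NeZero n] (k : ℕ) (B R δ : ℝ) : Prop :=
  ∀ G : Matrix (Fin n) (Fin n) ℝ, G.PosDef → (∀ i j, |G i j| ≤ B) → 1 / B ≤ G.det →
  ∀ h : LR.MF n, LR.SmM h → (∀ y, (h y).PosDef) → (∀ i j, LR.Cl k δ (fun y => h y i j - G i j)) →
  ∀ α : LR.Cn n N, LR.SmU α → (∀ i, LR.U.ClC k δ (α i)) →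
  ∀ (M : Type u) [TopologicalSpace M] [ChartedSpace (EuclideanHalfSpace n) M]
    [IsManifold (𝓡∂ n) ∞ M] [T2Space M] [CompactSpace M] [ConnectedSpace M] (Γ O : Set M),
    IsOpen O → Γ = O ∩ bd (at_ n M) → Γ.Nonempty → ∀ P P' Q Q' : Pair (at_ n M) N,
    Vale.Agent.P088.B.SameData Γ P Q → Related Γ P P' → Related Γ Q Q' →
    ∀ (p : M) (W K : Set (Fin n → ℝ)), IsOpn (at_ n M) p W → ConfO h P' p W → ConfO h Q' p W →
    ConnO α P' p W → BddA k δ Q' p W →
    IsCompact K → K ⊆ W → (∀ y ∈ K, ∀ j, |y j| ≤ R) → IsPreconnected Kᶜ →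
    IsPreconnected ((bd (at_ n M))ᶜ \ inM (at_ n M) p K) →
    B8.PwLe (inM (at_ n M) p K)ᶜ Γ P' Q' → (∀ x ∉ inM (at_ n M) p K, Q'.A x = P'.A x) →
    Related Γ P Q

end Vale.Agent.P088.R2.H455.F

end
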